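import Mathlib
import Vale.Agent.Lib.P190.Defs
import Vale.Agent.Lib.P190.CyclicExt

namespace Vale.Agent.Results.P190.CyclicExt

open Vale.Agent.Lib.P190

universe u

/-- Let `A` be a Cohen-Macaulay Noetherian local domain and `R` a local ring that is a
module-finite extension of `A` with a free resolution `0 → A^n → A^N → R → 0` over `A` (maps `φ`
and `π`), so that `Ext^1_A(R,A)` is the cokernel of the transpose of `φ`.  Assume that this
`R`-module is cyclic, generated by the class of a functional `η₀` on `A^n`: every functional `η`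
on `A^n` is congruent, modulo the functionals `ξ ∘ φ`, to `η₀ ∘ τ`, where `(σ, τ)` is a lift to the
resolution of the multiplication by some `s` in `R`.  Then `R` has a small Cohen-Macaulay
module. -/
theorem result {A R : Type u} [CommRing A] [IsDomain A] [IsLocalRing A]
    [IsNoetherianRing A] [CommRing R] [IsLocalRing R] [Algebra A R]
    (hinj : Function.Injective (algebraMap A R)) (hA : IsSmallCM A A)
    (N n : ℕ) (π : (Fin N → A) →ₗ[A] R) (hπ : Function.Surjective π)
    (φ : (Fin n → A) →ₗ[A] (Fin N → A)) (hφ : Function.Injective φ)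
    (hex : LinearMap.range φ = LinearMap.ker π)
    (η₀ : (Fin n → A) →ₗ[A] A)
    (hcyc : ∀ η : (Fin n → A) →ₗ[A] A, ∃ (s : R) (σ : (Fin N → A) →ₗ[A] (Fin N → A))
      (τ : (Fin n → A) →ₗ[A] (Fin n → A)) (ξ : (Fin N → A) →ₗ[A] A),
      (∀ z, π (σ z) = s * π z) ∧ (∀ g, σ (φ g) = φ (τ g)) ∧ ∀ g, η g = η₀ (τ g) + ξ (φ g)) :
    ∃ (M : Type u) (_ : AddCommGroup M) (_ : Module R M), IsSmallCM R M :=
  exists_smallCM_of_cyclic_ext hinj hA N n π hπ φ hφ hex η₀ hcyc

end Vale.Agent.Results.P190.CyclicExt
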