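import Mathlib
import Vale.Agent.Lib.P190.Defs
import Vale.Agent.Lib.P190.OneRelation

namespace Vale.Agent.Results.P190.OneRelation

open Vale.Agent.Lib.P190

universe u

/-- Let `A` be a Cohen-Macaulay Noetherian local domain and `R` a local ring that is a
module-finite extension of `A` and is, as an `A`-module, the quotient of a finite free module
`A^N` by the submodule spanned by one vector `v`.  Then `R` has a small Cohen-Macaulay module. -/
theorem result {A R : Type u} [CommRing A] [IsDomain A] [IsLocalRing A]
    [IsNoetherianRing A] [CommRing R] [IsLocalRing R] [Algebra A R]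
    (hinj : Function.Injective (algebraMap A R)) (hA : IsSmallCM A A)
    (N : ℕ) (π : (Fin N → A) →ₗ[A] R) (hπ : Function.Surjective π) (v : Fin N → A)
    (hv : LinearMap.ker π = Submodule.span A {v}) :
    ∃ (M : Type u) (_ : AddCommGroup M) (_ : Module R M), IsSmallCM R M :=
  exists_smallCM_of_one_relation hinj hA N π hπ v hv

end Vale.Agent.Results.P190.OneRelation
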