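import Mathlib
import Vale.Agent.Lib.P190.Defs
import Vale.Agent.Lib.P190.RankPlusOne

namespace Vale.Agent.Results.P190.RankPlusOne

open Vale.Agent.Lib.P190

universe u

/-- Let `A` be a Cohen-Macaulay Noetherian local unique factorization domain (for instance a
regular local ring) and `R` a local domain containing `A` that is generated, as an `A`-module, by
`N` elements with `N ≤ rank_A R + 1`.  Then `R` has a small Cohen-Macaulay module. -/
theorem result {A R : Type u} [CommRing A] [IsDomain A] [IsLocalRing A]
    [IsNoetherianRing A] [UniqueFactorizationMonoid A] [CommRing R] [IsDomain R] [IsLocalRing R]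
    [Algebra A R] (hinj : Function.Injective (algebraMap A R)) (hA : IsSmallCM A A)
    (N : ℕ) (b : Fin N → R) (hb : Submodule.span A (Set.range b) = ⊤)
    (hN : N ≤ Module.finrank A R + 1) :
    ∃ (M : Type u) (_ : AddCommGroup M) (_ : Module R M), IsSmallCM R M :=
  exists_smallCM_of_rank_add_one hinj hA N b hb hN

end Vale.Agent.Results.P190.RankPlusOne
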