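import Mathlib
import Vale.Agent.Lib.P190.Defs
import Vale.Agent.Results.P190.OneRelation
import Vale.Agent.Results.P190.CyclicExt
import Vale.Agent.Results.P190.RankPlusOne

/-!
# P190: three classes of module-finite extensions with a small Cohen-Macaulay module
-/

namespace Vale.Agent.Results.P190.A_Combined

open Vale.Agent.Lib.P190

universe u

theorem result {A R : Type u} [CommRing A] [IsDomain A] [IsLocalRing A]
    [IsNoetherianRing A] [CommRing R] [IsLocalRing R] [Algebra A R]
    (hinj : Function.Injective (algebraMap A R)) (hA : IsSmallCM A A) :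
    (∀ (N : ℕ) (π : (Fin N → A) →ₗ[A] R), Function.Surjective π → ∀ v : Fin N → A,
      LinearMap.ker π = Submodule.span A {v} →
      ∃ (M : Type u) (_ : AddCommGroup M) (_ : Module R M), IsSmallCM R M) ∧
    (∀ (N n : ℕ) (π : (Fin N → A) →ₗ[A] R), Function.Surjective π →
      ∀ φ : (Fin n → A) →ₗ[A] (Fin N → A), Function.Injective φ →
      LinearMap.range φ = LinearMap.ker π →
      ∀ η₀ : (Fin n → A) →ₗ[A] A,
      (∀ η : (Fin n → A) →ₗ[A] A, ∃ (s : R) (σ : (Fin N → A) →ₗ[A] (Fin N → A))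
        (τ : (Fin n → A) →ₗ[A] (Fin n → A)) (ξ : (Fin N → A) →ₗ[A] A),
        (∀ z, π (σ z) = s * π z) ∧ (∀ g, σ (φ g) = φ (τ g)) ∧ ∀ g, η g = η₀ (τ g) + ξ (φ g)) →
      ∃ (M : Type u) (_ : AddCommGroup M) (_ : Module R M), IsSmallCM R M) ∧
    (∀ [UniqueFactorizationMonoid A] [IsDomain R] (N : ℕ) (b : Fin N → R),
      Submodule.span A (Set.range b) = ⊤ → N ≤ Module.finrank A R + 1 →
      ∃ (M : Type u) (_ : AddCommGroup M) (_ : Module R M), IsSmallCM R M) := by
  refine ⟨?_, ?_, ?_⟩
  · intro N π hπ v hv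
    exact Vale.Agent.Results.P190.OneRelation.result hinj hA N π hπ v hv
  · intro N n π hπ φ hφ hex η₀ hcyc
    exact Vale.Agent.Results.P190.CyclicExt.result hinj hA N n π hπ φ hφ hex η₀ hcyc
  · intro _ _ N b hb hN
    exact Vale.Agent.Results.P190.RankPlusOne.result hinj hA N b hb hN

end Vale.Agent.Results.P190.A_Combined
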